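import Mathlib.Analysis.CStarAlgebra.Multiplier
import Mathlib.Analysis.Normed.Operator.BanachSteinhaus

/-!
Norms of orthogonal sums, and limits of strictly Cauchy sequences in the multiplier algebra.
-/

open scoped MultiplierAlgebra
open Filter Topology

namespace Vale.Agent.P133.R2.H905

universe u

theorem le_of_pow_two {r m : ℝ} (hm : 0 ≤ m) (h : ∀ k : ℕ, r ^ (2 ^ k) ≤ 2 * m ^ (2 ^ k)) :
    r ≤ m := by
  by_contra hlt
  push Not at hlt
  have hr : 0 < r := lt_of_le_of_lt hm hlt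
  have hq1 : m / r < 1 := (div_lt_one hr).2 hlt
  have hq0 : 0 ≤ m / r := div_nonneg hm hr.le
  obtain ⟨n, hn⟩ := exists_pow_lt_of_lt_one (show (0 : ℝ) < 1 / 2 by norm_num) hq1
  have hn2 : (m / r) ^ (2 ^ n) < 1 / 2 :=
    lt_of_le_of_lt (pow_le_pow_of_le_one hq0 hq1.le (Nat.lt_two_pow_self).le) hn
  have h2 := h n
  rw [div_pow, div_lt_iff₀ (pow_pos hr _)] at hn2
  linarith

section

variable {B : Type u} [NonUnitalCStarAlgebra B]

theorem norm_mul_self_sa {a : B} (ha : star a = a) : ‖a * a‖ = ‖a‖ * ‖a‖ := by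
  have := CStarRing.norm_star_mul_self (x := a)
  rwa [ha] at this

theorem norm_add_pow (k : ℕ) : ∀ a b : B, star a = a → star b = b → a * b = 0 → b * a = 0 →
    ‖a + b‖ ^ (2 ^ k) ≤ ‖a‖ ^ (2 ^ k) + ‖b‖ ^ (2 ^ k) := by
  induction k with
  | zero =>
    intro a b _ _ _ _
    simpa using norm_add_le a b
  | succ k ih =>
    intro a b ha hb hab hba
    have h1 : (a + b) * (a + b) = a * a + b * b := by
      rw [add_mul, mul_add, mul_add, hab, hba]; abel
    have hs : star (a + b) = a + b := by rw [star_add, ha, hb]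
    have h2 := ih (a * a) (b * b) (by rw [star_mul, ha]) (by rw [star_mul, hb])
      (by rw [mul_assoc, ← mul_assoc a b, hab]; simp)
      (by rw [mul_assoc, ← mul_assoc b a, hba]; simp)
    rw [← h1, norm_mul_self_sa hs, norm_mul_self_sa ha, norm_mul_self_sa hb] at h2
    have e : ∀ r : ℝ, r ^ (2 ^ (k + 1)) = (r * r) ^ (2 ^ k) := by
      intro r
      rw [pow_succ, mul_comm, pow_mul, pow_two]
    rw [e, e, e]
    exact h2

theorem norm_add_sa {a b : B} (ha : star a = a) (hb : star b = b) (hab : a * b = 0)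
    (hba : b * a = 0) : ‖a + b‖ ≤ max ‖a‖ ‖b‖ := by
  refine le_of_pow_two (le_max_of_le_left (norm_nonneg _)) fun k => ?_
  refine (norm_add_pow k a b ha hb hab hba).trans ?_
  have h1 : ‖a‖ ^ (2 ^ k) ≤ max ‖a‖ ‖b‖ ^ (2 ^ k) :=
    pow_le_pow_left₀ (norm_nonneg _) (le_max_left _ _) _
  have h2 : ‖b‖ ^ (2 ^ k) ≤ max ‖a‖ ‖b‖ ^ (2 ^ k) :=
    pow_le_pow_left₀ (norm_nonneg _) (le_max_right _ _) _
  linarith

theorem norm_add_orth {x y : B} {C : ℝ} (hC : 0 ≤ C) (hx : ‖x‖ ≤ C) (hy : ‖y‖ ≤ C)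
    (h1 : star x * y = 0) (h2 : x * star y = 0) : ‖x + y‖ ≤ C := by
  have h1' : star y * x = 0 := by
    have := congrArg star h1
    simpa using this
  have e : star (x + y) * (x + y) = star x * x + star y * y := by
    rw [star_add, add_mul, mul_add, mul_add, h1, h1']; abel
  have h2' : y * star x = 0 := by
    have := congrArg star h2
    simpa using this
  have h3 := norm_add_sa (a := star x * x) (b := star y * y) (by simp) (by simp)
    (by rw [mul_assoc, ← mul_assoc x, h2]; simp) (by rw [mul_assoc, ← mul_assoc y, h2']; simp)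
  rw [← e, CStarRing.norm_star_mul_self, CStarRing.norm_star_mul_self,
    CStarRing.norm_star_mul_self] at h3
  have h4 : max (‖x‖ * ‖x‖) (‖y‖ * ‖y‖) ≤ C * C :=
    max_le (mul_le_mul hx hx (norm_nonneg _) hC) (mul_le_mul hy hy (norm_nonneg _) hC)
  exact abs_le_of_sq_le_sq' (by nlinarith [norm_nonneg (x + y)]) hC |>.2

/-- The norm of a finite sum of pairwise orthogonal elements. -/
theorem norm_sum_orth {ι : Type} [DecidableEq ι]
    (s : Finset ι) (e : ι → B) {C : ℝ} (hC : 0 ≤ C) (h : ∀ i ∈ s, ‖e i‖ ≤ C)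
    (h1 : ∀ i ∈ s, ∀ j ∈ s, i ≠ j → star (e i) * e j = 0)
    (h2 : ∀ i ∈ s, ∀ j ∈ s, i ≠ j → e i * star (e j) = 0) : ‖∑ i ∈ s, e i‖ ≤ C := by
  induction s using Finset.induction_on with
  | empty => simpa using hC
  | insert a s ha ih =>
    rw [Finset.sum_insert ha]
    refine norm_add_orth hC (h a (Finset.mem_insert_self a s))
      (ih (fun i hi => h i (Finset.mem_insert_of_mem hi))
        (fun i hi j hj => h1 i (Finset.mem_insert_of_mem hi) j (Finset.mem_insert_of_mem hj))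
        (fun i hi j hj => h2 i (Finset.mem_insert_of_mem hi) j (Finset.mem_insert_of_mem hj)))
      ?_ ?_
    · rw [Finset.mul_sum]
      refine Finset.sum_eq_zero fun j hj => ?_
      exact h1 a (Finset.mem_insert_self a s) j (Finset.mem_insert_of_mem hj)
        (fun hh => ha (hh ▸ hj))
    · rw [star_sum, Finset.mul_sum]
      refine Finset.sum_eq_zero fun j hj => ?_
      exact h2 a (Finset.mem_insert_self a s) j (Finset.mem_insert_of_mem hj)
        (fun hh => ha (hh ▸ hj))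

/-- Limits of bounded strictly Cauchy sequences in the multiplier algebra. -/
theorem strict_lim0 {S : ℕ → B}
    (h1 : ∀ b : B, CauchySeq fun k => S k * b)
    (h2 : ∀ b : B, CauchySeq fun k => b * S k) :
    ∃ Z : 𝓜(ℂ, B), (∀ b : B, Tendsto (fun k => S k * b) atTop (𝓝 (Z.fst b))) ∧
      ∀ b : B, Tendsto (fun k => b * S k) atTop (𝓝 (Z.snd b)) := by
  choose L hL using fun b => cauchySeq_tendsto_of_complete (h1 b)
  choose R hR using fun b => cauchySeq_tendsto_of_complete (h2 b)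
  have hL' : Tendsto (fun n x => (ContinuousLinearMap.mul ℂ B (S n)) x) atTop (𝓝 L) :=
    tendsto_pi_nhds.2 hL
  have hR' : Tendsto (fun n x => ((ContinuousLinearMap.mul ℂ B).flip (S n)) x) atTop (𝓝 R) :=
    tendsto_pi_nhds.2 hR
  refine ⟨⟨(continuousLinearMapOfTendsto _ hL', continuousLinearMapOfTendsto _ hR'), ?_⟩,
    hL, hR⟩
  intro x y
  change R x * y = x * L y
  refine tendsto_nhds_unique ((hR x).mul_const y) ?_
  have := (hL y).const_mul x
  refine this.congr fun k => ?_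
  rw [mul_assoc]

/-- `strict_lim0` with the (superfluous) bound. -/
theorem strict_lim {S : ℕ → B} {C : ℝ}
    (_hC : ∀ k, ‖S k‖ ≤ C) (h1 : ∀ b : B, CauchySeq fun k => S k * b)
    (h2 : ∀ b : B, CauchySeq fun k => b * S k) :
    ∃ Z : 𝓜(ℂ, B), (∀ b : B, Tendsto (fun k => S k * b) atTop (𝓝 (Z.fst b))) ∧
      ∀ b : B, Tendsto (fun k => b * S k) atTop (𝓝 (Z.snd b)) :=
  strict_lim0 h1 h2

end

end Vale.Agent.P133.R2.H905
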