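import Vale.Agent.P133F.BlockW

/-! Weak pure infiniteness in elementwise form, with the same constant. -/

namespace Vale.Agent.P133.R2.H905

open scoped CStarAlgebra ComplexOrder
open Vale.Agent.P133.Statement Vale.Agent.P133F

universe u

variable {A : Type u} [NonUnitalCStarAlgebra A] [PartialOrder A] [StarOrderedRing A]

/-- If `diag (h, ..., h)` (`n` times) is properly infinite for all `h ≥ 0`, then `WPI A n`. -/
theorem wpi_n {n : ℕ} (H : ∀ h : A, 0 ≤ h → ProperlyInfiniteMat (diagN n h)) (hn : 1 ≤ n) :
    WPI A n := by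
  intro h h0 M
  have h1 : WQ n h (Fin (n + n)) := WQ_start (H h h0)
  have e : 2 * n = n + n := by ring
  have h2 : WQ n h (Fin 2 × Fin n) :=
    h1.of_injective (fun p => Fin.cast e (finProdFinEquiv p))
      (fun p q hpq => finProdFinEquiv.injective (Fin.cast_injective e hpq))
  have h3 : ∀ M : ℕ, ∃ M', M ≤ M' ∧ 1 ≤ M' ∧ WQ n h (Fin M') := by
    intro M
    induction M with
    | zero => exact ⟨n + n, by omega, by omega, h1⟩
    | succ M ih =>
      obtain ⟨M', hM, hM', hQ⟩ := ih
      refine ⟨2 * M', by omega, by omega, ?_⟩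
      exact (WQ_double hQ h2).of_injective finProdFinEquiv.symm finProdFinEquiv.symm.injective
  obtain ⟨M', hM, -, hQ⟩ := h3 M
  exact hQ.of_injective (Fin.castLE hM) (Fin.castLE_injective hM)

end Vale.Agent.P133.R2.H905
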