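import Mathlib.Analysis.CStarAlgebra.Hom
import Mathlib.Analysis.CStarAlgebra.Multiplier
import Vale.Agent.P133.R2.H474.NS2

/-!
P133 (helper905, for helper28): from orthogonal full multipliers of a hereditary subalgebra
`closure (a A a)` back to orthogonal positive elements of this subalgebra whose closed ideals
contain `a`.
-/

open scoped ComplexOrder MultiplierAlgebra
open Filter Topology

namespace Vale.Agent.P133.R2.H905

open Vale.Agent.P133 Vale.Agent.P133.H832 Vale.Agent.P133.R2.H474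

universe u

section

variable {A : Type u} [NonUnitalCStarAlgebra A] [PartialOrder A] [StarOrderedRing A]

/-- the function `t / (max t η)^2` of `a` is almost an inverse of `a` -/
theorem norm_mid {a : A} (ha : 0 ≤ a) {η : ℝ} (hη : 0 < η) :
    ‖a * cfcₙ (fun t : ℝ => t / (max t η) ^ 2) a * a - a‖ ≤ η := by
  have hpos : ∀ t : ℝ, 0 < (max t η) ^ 2 := fun t => by
    have : η ≤ max t η := le_max_right _ _
    positivity
  set g : ℝ → ℝ := fun t => t / (max t η) ^ 2 with hg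
  have hgc : Continuous g := Continuous.div continuous_id (by fun_prop) fun s => (hpos s).ne'
  have hg0 : g 0 = 0 := by simp only [hg, zero_div]
  have hc1 : Continuous fun s => s * g s := continuous_id.mul hgc
  have hc2 : Continuous fun s => s * g s * s := hc1.mul continuous_id
  have e1 : a * cfcₙ g a * a - a = cfcₙ (fun s => s * g s * s - s) a := by
    rw [cfcₙ_sub (fun s => s * g s * s) (fun s => s) a hc2.continuousOn (by simp) (by fun_prop) rfl,
      cfcₙ_mul (fun s => s * g s) (fun s => s) a hc1.continuousOn (by simp) (by fun_prop) rfl,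
      cfcₙ_mul (fun s => s) g a (by fun_prop) rfl hgc.continuousOn hg0, cfcₙ_id' ℝ a]
  rw [e1]
  refine norm_cfcₙ_le fun t ht => ?_
  have ht0 : 0 ≤ t := quasispectrum_nonneg_of_nonneg a ha t ht
  rcases le_total t η with h | h
  · have h4 : t * g t * t - t = t * (t ^ 2 / η ^ 2 - 1) := by
      simp only [hg, max_eq_right h]; ring
    have h5 : t ^ 2 / η ^ 2 ≤ 1 := by
      rw [div_le_one (by positivity)]; nlinarith
    have h6 : 0 ≤ t ^ 2 / η ^ 2 := by positivity
    rw [h4, Real.norm_eq_abs, abs_le]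
    constructor <;> nlinarith
  · have ht1 : t ≠ 0 := by linarith
    have h4 : t * g t * t - t = 0 := by
      simp only [hg, max_eq_left h]; field_simp; ring
    rw [h4, norm_zero]; exact hη.le

theorem mem_her_self {a : A} (ha : 0 ≤ a) : a ∈ her a := by
  refine her_lim fun ε hε => ⟨_, her_self a _, (norm_mid ha (half_pos hε)).trans_lt ?_⟩
  linarith

theorem exists_mid {a : A} (ha : 0 ≤ a) {η : ℝ} (hη : 0 < η) :
    ∃ g ∈ her a, ‖a * g * a - a‖ ≤ η := by
  have hpos : ∀ t : ℝ, 0 < (max t η) ^ 2 := fun t => by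
    have : η ≤ max t η := le_max_right _ _
    positivity
  exact ⟨_, her_cfc (IsSelfAdjoint.of_nonneg ha) (mem_her_self ha)
    (Continuous.div continuous_id (by fun_prop) fun s => (hpos s).ne') (by simp), norm_mid ha hη⟩

/-- elements of `her a` are limits of elements of `her a * a` -/
theorem her_lim_mul {a x : A} (ha : 0 ≤ a) (hx : x ∈ her a) {ε : ℝ} (hε : 0 < ε) :
    ∃ v ∈ her a, ‖v * a - x‖ < ε := by
  obtain ⟨_, ⟨w, rfl⟩, hw⟩ := Metric.mem_closure_iff.1 hx (ε / 2) (half_pos hε)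
  rw [dist_comm, dist_eq_norm] at hw
  change ‖a * w * a - x‖ < ε / 2 at hw
  obtain ⟨g, hg, hga⟩ := exists_mid ha (η := ε / (2 * (‖a * w‖ + 1))) (by positivity)
  refine ⟨a * w * a * g, her_mul (her_self a w) hg, ?_⟩
  have e1 : a * w * a * g * a - x = a * w * (a * g * a - a) + (a * w * a - x) := by
    rw [mul_sub]; simp only [mul_assoc]; abel
  rw [e1]
  have h1 : ‖a * w * (a * g * a - a)‖ ≤ ε / 2 := by
    calc _ ≤ ‖a * w‖ * ‖a * g * a - a‖ := norm_mul_le _ _
      _ ≤ ‖a * w‖ * (ε / (2 * (‖a * w‖ + 1))) := by gcongr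
      _ = ‖a * w‖ / (‖a * w‖ + 1) * (ε / 2) := by field_simp
      _ ≤ 1 * (ε / 2) := by
          gcongr
          rw [div_le_one (by positivity)]; linarith
      _ = ε / 2 := one_mul _
  calc _ ≤ ‖a * w * (a * g * a - a)‖ + ‖a * w * a - x‖ := norm_add_le _ _
    _ < ε := by linarith

end

namespace Back

variable {B : Type u} [NonUnitalCStarAlgebra B]

/-- the embedding of `B` into its multiplier algebra -/
noncomputable def emb : B →⋆ₙₐ[ℂ] 𝓜(ℂ, B) := DoubleCentralizer.coeHom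

theorem emb_fst (b x : B) : (emb b : 𝓜(ℂ, B)).fst x = b * x := rfl

theorem ext_fst {X Y : 𝓜(ℂ, B)} (h : ∀ b, X.fst b = Y.fst b) : X = Y := by
  have h1 : ‖X - Y‖ = 0 := by
    rw [← DoubleCentralizer.norm_fst, DoubleCentralizer.sub_fst]
    have : X.fst - Y.fst = 0 := by
      ext b; simp [h b]
    rw [this, norm_zero]
  exact sub_eq_zero.1 (norm_eq_zero.1 h1)

theorem mul_emb (X : 𝓜(ℂ, B)) (b : B) : X * emb b = emb (X.fst b) := by
  refine ext_fst fun x => ?_
  rw [DoubleCentralizer.mul_fst]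
  show X.fst (b * x) = X.fst b * x
  have h1 : ∀ y, y * X.fst (b * x) = y * (X.fst b * x) := by
    intro y
    rw [← X.central, ← mul_assoc y, ← X.central, mul_assoc]
  have h2 : star (X.fst (b * x) - X.fst b * x) * (X.fst (b * x) - X.fst b * x) = 0 := by
    rw [mul_sub, h1, sub_self]
  exact sub_eq_zero.1 ((CStarRing.star_mul_self_eq_zero_iff _).1 h2)

theorem emb_mul (X : 𝓜(ℂ, B)) (b : B) : emb b * X = emb (X.snd b) := by
  refine ext_fst fun x => ?_
  rw [DoubleCentralizer.mul_fst]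
  show b * X.fst x = X.snd b * x
  exact (X.central _ _).symm

theorem emb_injective : Function.Injective (emb : B →⋆ₙₐ[ℂ] 𝓜(ℂ, B)) := by
  intro b b' h
  have h1 : ∀ x : B, b * x = b' * x := fun x => by
    rw [← emb_fst, ← emb_fst, h]
  have h2 : (b - b') * star (b - b') = 0 := by
    rw [sub_mul, h1, sub_self]
  exact sub_eq_zero.1 ((CStarRing.mul_star_self_eq_zero_iff _).1 h2)

theorem norm_emb (b : B) : ‖(emb b : 𝓜(ℂ, B))‖ = ‖b‖ :=
  NonUnitalStarAlgHom.norm_map _ emb_injective b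

end Back

section

open Back

variable {A B : Type u} [NonUnitalCStarAlgebra A] [PartialOrder A] [StarOrderedRing A]
  [NonUnitalCStarAlgebra B] [PartialOrder B] [StarOrderedRing B]

omit [PartialOrder A] [StarOrderedRing A] [PartialOrder B] [StarOrderedRing B] in
theorem InId.map (φ : B →⋆ₙₐ[ℂ] A) {c d : B} (h : InId c d) : InId (φ c) (φ d) := by
  intro ε hε
  obtain ⟨m, r, s, h1⟩ := h ε hε
  refine ⟨m, fun k => φ (r k), fun k => φ (s k), ?_⟩
  have h2 : ∑ k, φ (r k) * φ c * φ (s k) - φ d = φ (∑ k, r k * c * s k - d) := by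
    rw [map_sub, map_sum]; simp only [map_mul]
  rw [h2]
  exact (NonUnitalStarAlgHom.norm_apply_le φ _).trans_lt h1

omit [PartialOrder B] [StarOrderedRing B] in
theorem snd_mul (X : 𝓜(ℂ, B)) (v w : B) : X.snd (v * w) = v * X.snd w := by
  refine emb_injective ?_
  rw [← emb_mul X (v * w), map_mul, map_mul, mul_assoc, emb_mul X w]

/-- one half of `back` -/
theorem back_aux (φ : B →⋆ₙₐ[ℂ] A) (hφ : Function.Injective φ) {a : A} (ha : 0 ≤ a)
    (hr : ∀ x, x ∈ Set.range φ ↔ x ∈ closure (Set.range fun w => a * w * a)) {b : B}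
    (hb : φ b = a) {x : 𝓜(ℂ, B)} (hxI : InId x 1) {z : B} (hz : emb z = emb b * x) :
    InId (φ (star z * z)) a := by
  rw [← hb]
  refine InId.map φ ?_
  obtain ⟨J, hJ, hJm⟩ := isClosedIdeal_inId (star z * z)
  have hzJ : z ∈ J := hJ.of_star_mul_self ((hJm _).2 (InId.refl _))
  have hz' : x.snd b = z := emb_injective (by rw [← emb_mul, hz])
  -- everything times `x` is in `J`
  have h1 : ∀ w : B, x.snd w ∈ J := by
    intro w
    refine hJ.lim fun ε hε => ?_
    obtain ⟨v', hv', hv⟩ := her_lim_mul ha ((hr (φ w)).1 ⟨w, rfl⟩)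
      (ε := ε / (‖x.snd‖ + 1)) (by positivity)
    obtain ⟨v, rfl⟩ := (hr v').2 hv'
    refine ⟨x.snd (v * b), ?_, ?_⟩
    · rw [snd_mul, hz']; exact (hJ.2 _ _ hzJ).1
    · have h2 : φ v * a - φ w = φ (v * b - w) := by rw [map_sub, map_mul, hb]
      rw [h2, NonUnitalStarAlgHom.norm_map φ hφ] at hv
      rw [← map_sub]
      calc _ ≤ ‖x.snd‖ * ‖v * b - w‖ := x.snd.le_opNorm _
        _ ≤ ‖x.snd‖ * (ε / (‖x.snd‖ + 1)) := by gcongr
        _ = ‖x.snd‖ / (‖x.snd‖ + 1) * ε := by ring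
        _ < ε := by
            have h3 : ‖x.snd‖ / (‖x.snd‖ + 1) < 1 := by
              rw [div_lt_one (by positivity)]; linarith
            nlinarith
  have h2 : ∀ w₁ w₂ : B, w₁ * w₂ ∈ J := by
    intro w₁ w₂
    refine hJ.lim fun ε hε => ?_
    obtain ⟨m, r, s, hrs⟩ := hxI (ε / (‖w₁‖ * ‖w₂‖ + 1)) (by positivity)
    refine ⟨∑ k, x.snd ((r k).snd w₁) * (s k).fst w₂,
      J.sum_mem fun k _ => (hJ.2 _ _ (h1 _)).2, ?_⟩
    have h3 : emb (∑ k, x.snd ((r k).snd w₁) * (s k).fst w₂ - w₁ * w₂) =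
        emb w₁ * (∑ k, r k * x * s k - 1) * emb w₂ := by
      rw [map_sub, map_sum, mul_sub, sub_mul, mul_one, map_mul, Finset.mul_sum, Finset.sum_mul]
      congr 1
      refine Finset.sum_congr rfl fun k _ => ?_
      rw [map_mul, ← emb_mul, ← emb_mul, ← mul_emb]
      simp only [mul_assoc]
    rw [← norm_emb, h3]
    calc _ ≤ ‖(emb w₁ : 𝓜(ℂ, B))‖ * ‖∑ k, r k * x * s k - 1‖ * ‖(emb w₂ : 𝓜(ℂ, B))‖ :=
          (norm_mul_le _ _).trans (by gcongr; exact norm_mul_le _ _)
      _ = ‖w₁‖ * ‖w₂‖ * ‖∑ k, r k * x * s k - 1‖ := by rw [norm_emb, norm_emb]; ring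
      _ ≤ ‖w₁‖ * ‖w₂‖ * (ε / (‖w₁‖ * ‖w₂‖ + 1)) := by gcongr
      _ = ‖w₁‖ * ‖w₂‖ / (‖w₁‖ * ‖w₂‖ + 1) * ε := by ring
      _ < ε := by
          have h3 : ‖w₁‖ * ‖w₂‖ / (‖w₁‖ * ‖w₂‖ + 1) < 1 := by
            rw [div_lt_one (by positivity)]; linarith
          nlinarith
  rw [← hJm]
  refine hJ.lim fun ε hε => ?_
  obtain ⟨G, hG⟩ := approx_unit b hε
  exact ⟨_, h2 _ _, hG⟩

/-- orthogonal full positive multipliers of `closure (a A a)` give orthogonal positive elements
of `closure (a A a)` whose closed ideals contain `a` -/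
theorem back (φ : B →⋆ₙₐ[ℂ] A) (hφ : Function.Injective φ) {a : A} (ha : 0 ≤ a)
    (hr : ∀ x, x ∈ Set.range φ ↔ x ∈ closure (Set.range fun w => a * w * a))
    [PartialOrder 𝓜(ℂ, B)] [StarOrderedRing 𝓜(ℂ, B)] {x y : 𝓜(ℂ, B)} (hx : 0 ≤ x) (hy : 0 ≤ y)
    (hxy : x * y = 0) (hxI : InId x 1) (hyI : InId y 1) :
    ∃ b₁ b₂ : A, 0 ≤ b₁ ∧ 0 ≤ b₂ ∧ b₁ * b₂ = 0 ∧
      b₁ ∈ closure (Set.range fun w => a * w * a) ∧ b₂ ∈ closure (Set.range fun w => a * w * a) ∧
      InId b₁ a ∧ InId b₂ a := by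
  obtain ⟨b, hb⟩ := (hr a).2 (mem_her_self ha)
  have hxs : star x = x := (IsSelfAdjoint.of_nonneg hx).star_eq
  have hys : star y = y := (IsSelfAdjoint.of_nonneg hy).star_eq
  set z₁ : B := x.snd b with hz₁
  set z₂ : B := y.snd b with hz₂
  have e₁ : emb z₁ = emb b * x := by rw [emb_mul]
  have e₂ : emb z₂ = emb b * y := by rw [emb_mul]
  refine ⟨φ (star z₁ * z₁), φ (star z₂ * z₂), ?_, ?_, ?_, (hr _).1 ⟨_, rfl⟩, (hr _).1 ⟨_, rfl⟩,
    back_aux φ hφ ha hr hb hxI e₁, back_aux φ hφ ha hr hb hyI e₂⟩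
  · rw [map_mul, map_star]; exact star_mul_self_nonneg _
  · rw [map_mul, map_star]; exact star_mul_self_nonneg _
  · rw [← map_mul]
    have h1 : star z₁ * z₁ * (star z₂ * z₂) = 0 := by
      refine emb_injective ?_
      rw [map_mul, map_mul, map_mul, map_star, map_star, map_zero, e₁, e₂, star_mul, star_mul,
        hxs, hys]
      calc _ = x * star (emb b) * emb b * (x * y) * (star (emb b) * (emb b * y)) := by
            simp only [mul_assoc]
        _ = 0 := by rw [hxy]; simp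
    rw [h1, map_zero]

end

end Vale.Agent.P133.R2.H905
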