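import Vale.Agent.P133.R2.H28.Base
import Vale.Agent.P133.H832.LInf

/-!
P133 (helper905, for helper28): images of cut-downs and of `InfB` under homomorphisms, coordinates
and positive elements of bounded products.
-/

open scoped ComplexOrder ENNReal

namespace Vale.Agent.P133.R2.H905

open Vale.Agent.P133 Vale.Agent.P133.H832 Vale.Agent.P133.R2.H28

universe u

section

variable {A B : Type u} [NonUnitalCStarAlgebra A] [PartialOrder A] [StarOrderedRing A]
  [NonUnitalCStarAlgebra B] [PartialOrder B] [StarOrderedRing B]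

theorem infB_map (φ : A →⋆ₙₐ[ℂ] B) {a c : A} (h : InfB a c) : InfB (φ a) (φ c) := by
  refine ⟨map_nonneg φ h.1, fun m ε hε => ?_⟩
  obtain ⟨r, hr⟩ := h.2 m ε hε
  refine ⟨fun i => φ (r i), fun i j => ?_⟩
  have h1 : star (φ (r i)) * φ a * φ (r j) - (if i = j then φ c else 0) =
      φ (star (r i) * a * r j - (if i = j then c else 0)) := by
    rw [map_sub, map_mul, map_mul, map_star]
    split_ifs
    · rfl
    · rw [map_zero]
  rw [h1]
  exact (NonUnitalStarAlgHom.norm_apply_le φ _).trans_lt (hr i j)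

theorem cut_map (φ : A →⋆ₙₐ[ℂ] B) {a : A} (ha : 0 ≤ a) (δ : ℝ) :
    φ (R2.H28.cut a δ) = R2.H28.cut (φ a) δ := by
  rcases le_or_gt 0 δ with hδ | hδ
  · have hf : Continuous (fun t : ℝ => max (t - δ) 0) := by fun_prop
    have hf0 : (fun t : ℝ => max (t - δ) 0) 0 = 0 := by
      simp only [zero_sub]; exact max_eq_right (by linarith)
    have hφ : Continuous φ := map_continuous φ
    exact NonUnitalStarAlgHomClass.map_cfcₙ φ _ a (hf := hf.continuousOn) (hf₀ := hf0)
      (hφ := hφ) (ha := IsSelfAdjoint.of_nonneg ha) (hφa := IsSelfAdjoint.of_nonneg (map_nonneg φ ha))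
  · have hf0 : ¬ (fun t : ℝ => max (t - δ) 0) 0 = 0 := by
      simp only [zero_sub]
      rw [max_eq_left (by linarith)]
      linarith
    rw [R2.H28.cut, R2.H28.cut,
      cfcₙ_apply_of_not_map_zero (f := fun t : ℝ => max (t - δ) 0) a hf0,
      cfcₙ_apply_of_not_map_zero (f := fun t : ℝ => max (t - δ) 0) (φ a) hf0, map_zero]

end

section

variable {A : ℕ → Type u} [∀ k, NonUnitalCStarAlgebra (A k)]

/-- the coordinates of a bounded product -/
noncomputable def ev (k : ℕ) : lp A ∞ →⋆ₙₐ[ℂ] A k where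
  toFun f := f k
  map_smul' c f := by rw [lp.coeFn_smul]; rfl
  map_zero' := by rw [lp.coeFn_zero]; rfl
  map_add' f g := by rw [lp.coeFn_add]; rfl
  map_mul' f g := lp_mul_apply f g k
  map_star' f := lp.star_apply f k

theorem ev_apply (k : ℕ) (f : lp A ∞) : ev k f = f k := rfl

theorem exists_lp [∀ k, PartialOrder (A k)] [∀ k, StarOrderedRing (A k)]
    [PartialOrder (lp A ∞)] [StarOrderedRing (lp A ∞)] (b : ∀ k, A k) (h0 : ∀ k, 0 ≤ b k)
    (h1 : ∀ k, ‖b k‖ ≤ 1) : ∃ f : lp A ∞, 0 ≤ f ∧ ∀ k, f k = b k := by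
  have hs : ∀ k, star (CFC.sqrt (b k)) = CFC.sqrt (b k) := fun k =>
    (IsSelfAdjoint.of_nonneg (CFC.sqrt_nonneg _)).star_eq
  have hn : ∀ k, ‖CFC.sqrt (b k)‖ ≤ 1 := by
    intro k
    have h2 : ‖CFC.sqrt (b k)‖ * ‖CFC.sqrt (b k)‖ = ‖b k‖ := by
      rw [← CStarRing.norm_star_mul_self, hs, CFC.sqrt_mul_sqrt_self (b k) (h0 k)]
    nlinarith [h1 k, norm_nonneg (CFC.sqrt (b k))]
  have hm : Memℓp (fun k => CFC.sqrt (b k)) ∞ := by
    refine memℓp_infty ⟨1, ?_⟩
    rintro _ ⟨k, rfl⟩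
    exact hn k
  let g : lp A ∞ := ⟨fun k => CFC.sqrt (b k), hm⟩
  refine ⟨star g * g, star_mul_self_nonneg g, fun k => ?_⟩
  rw [lp_mul_apply, lp.star_apply]
  show star (CFC.sqrt (b k)) * CFC.sqrt (b k) = b k
  rw [hs, CFC.sqrt_mul_sqrt_self (b k) (h0 k)]

end

end Vale.Agent.P133.R2.H905
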